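import Crest.Agent.Helper96.S0151.Defs
import Crest.Agent.Helper89.S0151.Rot
import Crest.Agent.Helper23.S0151.CovAlg
import Crest.Agent.Helper22.S0151.Adj
import Crest.Agent.Helper95.S0151.Tau
import Crest.Agent.Helper5.S0151.Weight
import Crest.Agent.Helper24.S0151.TShift

/-!
# S0151, leaf C9a (hedge copy by helper98): polynomials of `T*T + ε` are multipliers

`tau_aeval_Meps` and `norm_T_le_one`, with the Blueprint signatures, from the landed leaves
C1 (helper89), C3 (helper23), C4 (helper22), C5 (helper95), C6a (helper5), `isCov_T`/`bm_wmul`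
(helper24).
-/

set_option autoImplicit false

open MeasureTheory Crest.AnalysisR.ProductShift
open scoped ENNReal ComplexConjugate

namespace Crest.Agent.Helper98.S0151

open Crest.Agent.Helper96.S0151

/-- `‖T‖ ≤ 1`. -/
theorem norm_T_le_one (θ c : ℕ → ℝ) (T : pairSpace →L[ℂ] pairSpace)
    (hT : IsWeightedShift θ c T) : ‖T‖ ≤ 1 := by
  refine Crest.Agent.Helper23.S0151.IsCov.norm_le
    (Crest.Agent.Helper24.S0151.isCov_T θ c T hT) 1 (fun y => ?_)
  unfold wmul
  rw [Complex.norm_real, Real.norm_eq_abs,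
    abs_of_nonneg (Crest.Agent.Helper5.S0151.weight_nonneg θ c _)]
  exact Crest.Agent.Helper5.S0151.weight_le_one θ c _

/-- `T*T + ε` is the multiplier `w² + ε` (degree `0`). -/
theorem isCov_Meps (θ c : ℕ → ℝ) (T : pairSpace →L[ℂ] pairSpace)
    (hT : IsWeightedShift θ c T) (ε : ℝ) :
    IsCov θ (fun y => (((weight θ c y) ^ 2 + ε : ℝ) : ℂ)) 0
      (star T * T + ((ε : ℝ) : ℂ) • (1 : pairSpace →L[ℂ] pairSpace)) := by
  have hT' := Crest.Agent.Helper24.S0151.isCov_T θ c T hT
  have hadj := Crest.Agent.Helper22.S0151.IsCov.adjoint hT'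
    (Crest.Agent.Helper24.S0151.bm_wmul θ c)
  have hmul := Crest.Agent.Helper23.S0151.IsCov.mul hadj hT'
  have h0 : (-1 + 1 : ℤ) = 0 := by norm_num
  rw [h0] at hmul
  have hone := Crest.Agent.Helper23.S0151.IsCov.smul ((ε : ℝ) : ℂ)
    (Crest.Agent.Helper23.S0151.isCov_one θ)
  have hsum := Crest.Agent.Helper23.S0151.IsCov.add hmul hone
  rw [← ContinuousLinearMap.star_eq_adjoint] at hsum
  refine Crest.Agent.Helper23.S0151.IsCov.congr hsum (fun y => ?_)
  simp only [wmul, Crest.Agent.Helper89.S0151.orbitPoint_orbitPoint, neg_neg, mul_one]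
  simp only [Complex.conj_ofReal]
  norm_num
  ring

/-- Polynomials of `T*T + ε` are multipliers of degree `0`. -/
theorem isCov_aeval_Meps (θ c : ℕ → ℝ) (T : pairSpace →L[ℂ] pairSpace)
    (hT : IsWeightedShift θ c T) (ε : ℝ) (p : Polynomial ℝ) :
    IsCov θ (fun y => ((p.eval ((weight θ c y) ^ 2 + ε) : ℝ) : ℂ)) 0
      (Polynomial.aeval (star T * T + ((ε : ℝ) : ℂ) • (1 : pairSpace →L[ℂ] pairSpace)) p) := by
  induction p using Polynomial.induction_on with
  | C a =>
    rw [Polynomial.aeval_C]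
    have h := Crest.Agent.Helper23.S0151.IsCov.smul ((a : ℝ) : ℂ)
      (Crest.Agent.Helper23.S0151.isCov_one θ)
    have e : algebraMap ℝ (pairSpace →L[ℂ] pairSpace) a
        = ((a : ℝ) : ℂ) • (1 : pairSpace →L[ℂ] pairSpace) := by
      rw [Algebra.algebraMap_eq_smul_one, Complex.coe_smul]
      rfl
    rw [e]
    refine Crest.Agent.Helper23.S0151.IsCov.congr h (fun y => ?_)
    simp
  | add p q hp hq =>
    rw [map_add]
    refine Crest.Agent.Helper23.S0151.IsCov.congr
      (Crest.Agent.Helper23.S0151.IsCov.add hp hq) (fun y => ?_)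
    simp
  | monomial n a h =>
    have e : Polynomial.aeval (star T * T + ((ε : ℝ) : ℂ) • (1 : pairSpace →L[ℂ] pairSpace))
          (Polynomial.C a * Polynomial.X ^ (n + 1))
        = Polynomial.aeval (star T * T + ((ε : ℝ) : ℂ) • (1 : pairSpace →L[ℂ] pairSpace))
            (Polynomial.C a * Polynomial.X ^ n)
          * (star T * T + ((ε : ℝ) : ℂ) • (1 : pairSpace →L[ℂ] pairSpace)) := by
      rw [pow_succ, ← mul_assoc, map_mul, Polynomial.aeval_X]
    rw [e]
    have hm := Crest.Agent.Helper23.S0151.IsCov.mul h (isCov_Meps θ c T hT ε)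
    rw [zero_add] at hm
    refine Crest.Agent.Helper23.S0151.IsCov.congr hm (fun y => ?_)
    simp only [Crest.Agent.Helper89.S0151.orbitPoint_orbitPoint, neg_zero, zero_add]
    simp only [Polynomial.eval_mul, Polynomial.eval_C, Polynomial.eval_pow, Polynomial.eval_X]
    push_cast
    ring

/-- Leaf C9a: the vacuum expectation of a polynomial of `T*T + ε` is an integral. -/
theorem tau_aeval_Meps (θ c : ℕ → ℝ) (T : pairSpace →L[ℂ] pairSpace)
    (hT : IsWeightedShift θ c T) (ε : ℝ) (hε : 0 < ε) (p : Polynomial ℝ) :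
    tau (Polynomial.aeval (star T * T + ((ε : ℝ) : ℂ) • (1 : pairSpace →L[ℂ] pairSpace)) p)
      = ((∫ y, p.eval ((weight θ c y) ^ 2 + ε) ∂cubeMeasure : ℝ) : ℂ) := by
  have _hε' := hε
  have h := isCov_aeval_Meps θ c T hT ε p
  have hmeas : Measurable (fun y => ((p.eval ((weight θ c y) ^ 2 + ε) : ℝ) : ℂ)) :=
    Complex.measurable_ofReal.comp (p.continuous.measurable.comp
      (((Crest.Agent.Helper5.S0151.measurable_weight θ c).pow_const 2).add_const ε))
  obtain ⟨C, hC⟩ := (isCompact_Icc (a := ε) (b := 1 + ε)).exists_bound_of_continuousOn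
    p.continuous.continuousOn
  have hbm : BM (fun y => ((p.eval ((weight θ c y) ^ 2 + ε) : ℝ) : ℂ)) := by
    refine ⟨hmeas, C, fun y => ?_⟩
    rw [Complex.norm_real]
    apply hC
    have h0 := Crest.Agent.Helper5.S0151.weight_nonneg θ c y
    have h1 := Crest.Agent.Helper5.S0151.weight_le_one θ c y
    have h4 : 0 ≤ weight θ c y ^ 2 := sq_nonneg _
    have h5 : weight θ c y ^ 2 ≤ 1 := pow_le_one₀ h0 h1
    constructor <;> linarith
  rw [Crest.Agent.Helper95.S0151.IsCov.tau_eq h hbm, if_pos rfl]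
  exact integral_ofReal

end Crest.Agent.Helper98.S0151
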