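import Crest.Agent.Helper98.S0151.ZeroOf
import Crest.Agent.Helper98.S0151.Meps

/-!
# S0151, leaf C9c: `vectorDet vacuumVector T = 0` (Blueprint signature)

From `vectorDet_zero_of_c9a` (ZeroOf.lean: Weierstrass + `cfc_mono`, leaves C6a, C9b) and the two
facts of leaf C9a (`norm_T_le_one`, `tau_aeval_Meps`; Meps.lean).
-/

set_option autoImplicit false

open MeasureTheory Crest.AnalysisR.ProductShift
open scoped ENNReal ComplexConjugate

namespace Crest.Agent.Helper98.S0151

open Crest.Agent.Helper96.S0151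

theorem vectorDet_zero (θ c : ℕ → ℝ) (hθ : ∀ i, 0 < θ i ∧ θ i < 1) (hc : ∀ i, 0 ≤ c i)
    (hpos : ∀ᵐ x ∂cubeMeasure, 0 < weight θ c x)
    (hlog : ∫⁻ x, ENNReal.ofReal (- Real.log (weight θ c x)) ∂cubeMeasure = ⊤)
    (T : pairSpace →L[ℂ] pairSpace) (hT : IsWeightedShift θ c T) :
    vectorDet vacuumVector T = 0 := by
  have _h1 := hθ
  have _h2 := hc
  exact vectorDet_zero_of_c9a θ c hpos hlog T (norm_T_le_one θ c T hT)
    (fun ε hε p => tau_aeval_Meps θ c T hT ε hε p)

end Crest.Agent.Helper98.S0151
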