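import Mathlib
import Crest.Prelude.Def_ProductShift

/-!
# S0151, leaf C9c (abstract part): `vectorDet ξ T = 0` from polynomial moments

If `‖T‖ ≤ 1`, the vector state of `ξ` on polynomials of `T*T + ε` is the integral of the
polynomial of `w² + ε` over a probability space, and `∫ log (w² + ε) → -∞`, then the
determinant of `T` relative to `ξ` vanishes.  (Weierstrass + `cfc_mono`.)
-/

set_option autoImplicit false

open MeasureTheory Crest.AnalysisR.ProductShift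
open scoped ENNReal ComplexConjugate

namespace Crest.Agent.Helper98.S0151

section Abstract

variable {H : Type*} [NormedAddCommGroup H] [InnerProductSpace ℂ H] [CompleteSpace H]

omit [CompleteSpace H] in
/-- The quadratic form of a vector is monotone for the Loewner order. -/
theorem re_inner_mono (ξ : H) {P Q : H →L[ℂ] H} (h : P ≤ Q) :
    RCLike.re (inner ℂ ξ (P ξ)) ≤ RCLike.re (inner ℂ ξ (Q ξ)) := by
  rw [ContinuousLinearMap.le_def] at h
  have h2 := h.re_inner_nonneg_right ξ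
  simp only [sub_apply, inner_sub_right, map_sub] at h2
  linarith

/-- `T*T + ε` is self-adjoint. -/
theorem isSelfAdjoint_star_mul_self_add (T : H →L[ℂ] H) (ε : ℝ) :
    IsSelfAdjoint (star T * T + ((ε : ℝ) : ℂ) • (1 : H →L[ℂ] H)) := by
  refine (IsSelfAdjoint.star_mul_self T).add ?_
  rw [isSelfAdjoint_iff, star_smul, star_one]
  simp

/-- The spectrum of `T*T + ε` lies in `[ε, 1 + ε]` when `‖T‖ ≤ 1`. -/
theorem spectrum_star_mul_self_add_subset (T : H →L[ℂ] H) (hT : ‖T‖ ≤ 1) (ε : ℝ) :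
    spectrum ℝ (star T * T + ((ε : ℝ) : ℂ) • (1 : H →L[ℂ] H)) ⊆ Set.Icc ε (1 + ε) := by
  have hsm : ((ε : ℝ) : ℂ) • (1 : H →L[ℂ] H) = algebraMap ℝ (H →L[ℂ] H) ε := by
    rw [Algebra.algebraMap_eq_smul_one, Complex.coe_smul]
  rw [hsm, ← spectrum.add_singleton_eq]
  rintro _ ⟨x, hx, _, rfl, rfl⟩
  have h0 : 0 ≤ x := spectrum_nonneg_of_nonneg (star_mul_self_nonneg T) hx
  have h1' : ‖x‖ ≤ ‖star T * T‖ * ‖(1 : H →L[ℂ] H)‖ := spectrum.norm_le_norm_mul_of_mem hx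
  have h1'' : ‖(1 : H →L[ℂ] H)‖ ≤ 1 := ContinuousLinearMap.norm_id_le
  have h1 : ‖x‖ ≤ ‖star T * T‖ :=
    h1'.trans (mul_le_of_le_one_right (norm_nonneg _) h1'')
  have h2 : ‖star T * T‖ ≤ 1 := by
    calc ‖star T * T‖ ≤ ‖star T‖ * ‖T‖ := norm_mul_le _ _
      _ = ‖T‖ * ‖T‖ := by rw [norm_star]
      _ ≤ 1 * 1 := by gcongr
      _ = 1 := one_mul 1
  rw [Real.norm_eq_abs, abs_of_nonneg h0] at h1
  constructor <;> linarith

/-- Key estimate: `Re⟪ξ, log(T*T + ε) ξ⟫ ≤ ∫ log (w² + ε) + 2`. -/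
theorem re_inner_cfc_log_le (ξ : H) (T : H →L[ℂ] H) (hT : ‖T‖ ≤ 1)
    {Ω : Type*} [MeasurableSpace Ω] (μ : Measure Ω) [IsProbabilityMeasure μ]
    (w : Ω → ℝ) (hwm : Measurable w) (hw0 : ∀ y, 0 ≤ w y) (hw1 : ∀ y, w y ≤ 1)
    (ε : ℝ) (hε : 0 < ε) (hε1 : ε ≤ 1)
    (htau : ∀ p : Polynomial ℝ,
      inner ℂ ξ (Polynomial.aeval (star T * T + ((ε : ℝ) : ℂ) • (1 : H →L[ℂ] H)) p ξ)
        = ((∫ y, p.eval (w y ^ 2 + ε) ∂μ : ℝ) : ℂ)) :
    RCLike.re (inner ℂ ξ (cfc Real.log (star T * T + ((ε : ℝ) : ℂ) • (1 : H →L[ℂ] H)) ξ))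
      ≤ ∫ y, Real.log (w y ^ 2 + ε) ∂μ + 2 := by
  set Mε : H →L[ℂ] H := star T * T + ((ε : ℝ) : ℂ) • (1 : H →L[ℂ] H) with hMε
  have hsa : IsSelfAdjoint Mε := isSelfAdjoint_star_mul_self_add T ε
  have hspec : spectrum ℝ Mε ⊆ Set.Icc ε (1 + ε) := spectrum_star_mul_self_add_subset T hT ε
  have hcont : ContinuousOn (fun x : ℝ => Real.log x + 1) (Set.Icc ε (1 + ε)) := by
    refine ContinuousOn.add ?_ continuousOn_const
    exact Real.continuousOn_log.mono (fun x hx => ne_of_gt (lt_of_lt_of_le hε hx.1))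
  obtain ⟨p, hp⟩ := exists_polynomial_near_of_continuousOn ε (1 + ε)
    (fun x : ℝ => Real.log x + 1) hcont 1 one_pos
  have h1 : ∀ x ∈ Set.Icc ε (1 + ε), Real.log x ≤ p.eval x ∧ p.eval x ≤ Real.log x + 2 := by
    intro x hx
    have h := abs_lt.mp (hp x hx)
    constructor <;> linarith [h.1, h.2]
  have hlogc : ContinuousOn Real.log (spectrum ℝ Mε) :=
    Real.continuousOn_log.mono (fun x hx => ne_of_gt (lt_of_lt_of_le hε (hspec hx).1))
  have hle : cfc Real.log Mε ≤ cfc (fun x : ℝ => p.eval x) Mε :=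
    cfc_mono (fun x hx => (h1 x (hspec hx)).1) hlogc p.continuous.continuousOn
  have hpoly : cfc (fun x : ℝ => p.eval x) Mε = Polynomial.aeval Mε p := cfc_polynomial p Mε hsa
  rw [hpoly] at hle
  have h2 := re_inner_mono ξ hle
  rw [htau p] at h2
  have h3 : RCLike.re (((∫ y, p.eval (w y ^ 2 + ε) ∂μ : ℝ) : ℂ)) = ∫ y, p.eval (w y ^ 2 + ε) ∂μ := by
    simp
  rw [h3] at h2
  refine h2.trans ?_
  -- pointwise comparison of the integrands
  have hmem : ∀ y, w y ^ 2 + ε ∈ Set.Icc ε (1 + ε) := by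
    intro y
    have h4 : 0 ≤ w y ^ 2 := sq_nonneg _
    have h5 : w y ^ 2 ≤ 1 := pow_le_one₀ (hw0 y) (hw1 y)
    constructor <;> linarith
  have hlogb : ∀ x ∈ Set.Icc ε (1 + ε), |Real.log x| ≤ |Real.log ε| + 1 := by
    intro x hx
    have hx0 : 0 < x := lt_of_lt_of_le hε hx.1
    have h6 : Real.log ε ≤ Real.log x := Real.log_le_log hε hx.1
    have h7 : Real.log x ≤ x - 1 := Real.log_le_sub_one_of_pos hx0
    have h8 : Real.log ε ≤ 0 := Real.log_nonpos hε.le hε1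
    rw [abs_le]
    constructor
    · rw [abs_of_nonpos h8]; linarith
    · have := abs_nonneg (Real.log ε); linarith [hx.2]
  have hm1 : Measurable (fun y => w y ^ 2 + ε) := (hwm.pow_const 2).add_const ε
  have hint1 : Integrable (fun y => p.eval (w y ^ 2 + ε)) μ := by
    refine Integrable.of_bound (p.continuous.measurable.comp hm1).aestronglyMeasurable
      (|Real.log ε| + 3) (Filter.Eventually.of_forall fun y => ?_)
    have h9 := h1 _ (hmem y)
    have h10 := abs_le.mp (hlogb _ (hmem y))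
    rw [Real.norm_eq_abs, abs_le]
    constructor <;> linarith [h9.1, h9.2, h10.1, h10.2]
  have hint2 : Integrable (fun y => Real.log (w y ^ 2 + ε) + 2) μ := by
    refine Integrable.of_bound
      ((Real.measurable_log.comp hm1).add_const 2).aestronglyMeasurable
      (|Real.log ε| + 3) (Filter.Eventually.of_forall fun y => ?_)
    have h10 := abs_le.mp (hlogb _ (hmem y))
    rw [Real.norm_eq_abs, abs_le]
    constructor <;> linarith [h10.1, h10.2]
  have hint3 : Integrable (fun y => Real.log (w y ^ 2 + ε)) μ := by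
    have h11 := hint2.sub (integrable_const (2 : ℝ))
    refine h11.congr (Filter.Eventually.of_forall fun y => ?_)
    simp
  calc ∫ y, p.eval (w y ^ 2 + ε) ∂μ
      ≤ ∫ y, (Real.log (w y ^ 2 + ε) + 2) ∂μ :=
        integral_mono hint1 hint2 (fun y => (h1 _ (hmem y)).2)
    _ = ∫ y, Real.log (w y ^ 2 + ε) ∂μ + 2 := by
        rw [integral_add hint3 (integrable_const _)]
        simp

/-- Abstract form of leaf C9c. -/
theorem vectorDet_eq_zero_of (ξ : H) (T : H →L[ℂ] H) (hT : ‖T‖ ≤ 1)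
    {Ω : Type*} [MeasurableSpace Ω] (μ : Measure Ω) [IsProbabilityMeasure μ]
    (w : Ω → ℝ) (hwm : Measurable w) (hw0 : ∀ y, 0 ≤ w y) (hw1 : ∀ y, w y ≤ 1)
    (htau : ∀ ε : ℝ, 0 < ε → ∀ p : Polynomial ℝ,
      inner ℂ ξ (Polynomial.aeval (star T * T + ((ε : ℝ) : ℂ) • (1 : H →L[ℂ] H)) p ξ)
        = ((∫ y, p.eval (w y ^ 2 + ε) ∂μ : ℝ) : ℂ))
    (hlog : ∀ M : ℝ, ∃ ε : ℝ, 0 < ε ∧ ε ≤ 1 ∧ ∫ y, Real.log (w y ^ 2 + ε) ∂μ ≤ -M) :
    vectorDet ξ T = 0 := by
  unfold vectorDet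
  refine le_antisymm ?_ (Real.iInf_nonneg fun ε => (Real.exp_pos _).le)
  by_contra hcon
  rw [not_le] at hcon
  set δ : ℝ := ⨅ ε : {r : ℝ // 0 < r},
    Real.exp (RCLike.re (inner ℂ ξ
      (cfc Real.log (star T * T + ((ε : ℝ) : ℂ) • (1 : H →L[ℂ] H)) ξ)) / 2) with hδ
  obtain ⟨ε, hε, hε1, hint⟩ := hlog (4 - 2 * Real.log δ)
  have hbdd : BddBelow (Set.range fun ε : {r : ℝ // 0 < r} =>
      Real.exp (RCLike.re (inner ℂ ξ
        (cfc Real.log (star T * T + ((ε : ℝ) : ℂ) • (1 : H →L[ℂ] H)) ξ)) / 2)) :=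
    ⟨0, by rintro _ ⟨ε, rfl⟩; exact (Real.exp_pos _).le⟩
  have h1 : δ ≤ Real.exp (RCLike.re (inner ℂ ξ
      (cfc Real.log (star T * T + ((ε : ℝ) : ℂ) • (1 : H →L[ℂ] H)) ξ)) / 2) :=
    ciInf_le hbdd ⟨ε, hε⟩
  have h2 := re_inner_cfc_log_le ξ T hT μ w hwm hw0 hw1 ε hε hε1 (htau ε hε)
  have h3 : Real.exp (RCLike.re (inner ℂ ξ
      (cfc Real.log (star T * T + ((ε : ℝ) : ℂ) • (1 : H →L[ℂ] H)) ξ)) / 2)
      ≤ Real.exp (Real.log δ - 1) := by
    apply Real.exp_le_exp.mpr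
    linarith
  have h4 : Real.exp (Real.log δ - 1) < δ := by
    rw [Real.exp_sub, Real.exp_log hcon]
    have : (1 : ℝ) < Real.exp 1 := by
      have := Real.add_one_lt_exp (x := (1 : ℝ)) one_ne_zero
      linarith
    rw [div_lt_iff₀ (Real.exp_pos 1)]
    nlinarith
  linarith

end Abstract

end Crest.Agent.Helper98.S0151
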