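import Crest.Agent.Helper96.S0151.Defs
import Crest.Agent.Helper5.S0151.Weight
import Crest.Agent.Helper65.S0151.C9b
import Crest.Agent.Helper98.S0151.ZeroAbs

/-!
# S0151, leaf C9c: the case `z = 0`, reduced to the two facts of leaf C9a

`vectorDet_zero_of_c9a` : from `‖T‖ ≤ 1` and the moment formula of `T*T + ε` (leaf C9a),
`vectorDet vacuumVector T = 0`.  Uses leaf C6a (helper5), leaf C9b (helper65) and `ZeroAbs`.
-/

set_option autoImplicit false

open MeasureTheory Crest.AnalysisR.ProductShift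
open scoped ENNReal ComplexConjugate

namespace Crest.Agent.Helper98.S0151

open Crest.Agent.Helper96.S0151

theorem vectorDet_zero_of_c9a (θ c : ℕ → ℝ)
    (hpos : ∀ᵐ x ∂cubeMeasure, 0 < weight θ c x)
    (hlog : ∫⁻ x, ENNReal.ofReal (- Real.log (weight θ c x)) ∂cubeMeasure = ⊤)
    (T : pairSpace →L[ℂ] pairSpace) (hnorm : ‖T‖ ≤ 1)
    (htau : ∀ ε : ℝ, 0 < ε → ∀ p : Polynomial ℝ,
      tau (Polynomial.aeval (star T * T + ((ε : ℝ) : ℂ) • (1 : pairSpace →L[ℂ] pairSpace)) p)
        = ((∫ y, p.eval ((weight θ c y) ^ 2 + ε) ∂cubeMeasure : ℝ) : ℂ)) :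
    vectorDet vacuumVector T = 0 :=
  vectorDet_eq_zero_of vacuumVector T hnorm cubeMeasure (weight θ c)
    (Crest.Agent.Helper5.S0151.measurable_weight θ c)
    (Crest.Agent.Helper5.S0151.weight_nonneg θ c)
    (Crest.Agent.Helper5.S0151.weight_le_one θ c)
    (fun ε hε p => htau ε hε p)
    (Crest.Agent.Helper65.S0151.integral_log_unbounded θ c hpos hlog)

end Crest.Agent.Helper98.S0151
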